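import Vale.Agent.P243.Main

/-!
# P243: Bang's half-area problem for cylinders with axes parallel to a common plane
-/

namespace Vale.Agent.Results.P243.CoplanarAxes

open Finset MeasureTheory
open scoped ENNReal

/-- Euclidean three-space. -/
abbrev E3 : Type := EuclideanSpace ℝ (Fin 3)

/-- A cylinder `base + ℝ u`. Here `u` is a unit vector, `a, b` is an orthonormal basis of the
plane orthogonal to `u`, and the base is a measurable subset of that plane, written in the
orthonormal coordinates given by `a, b`. -/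
structure Cylinder where
  a : E3
  b : E3
  u : E3
  orth : Orthonormal ℝ ![a, b, u]
  base : Set (ℝ × ℝ)
  meas : MeasurableSet base

/-- The points of the cylinder. -/
def Cylinder.toSet (C : Cylinder) : Set E3 :=
  {x | ∃ z ∈ C.base, ∃ t : ℝ, x = z.1 • C.a + z.2 • C.b + t • C.u}

/-- The planar area of the base. -/
noncomputable def Cylinder.area (C : Cylinder) : ℝ≥0∞ := volume C.base

/-- The orthogonal projection of `K` onto the plane spanned by the orthonormal vectors `a, b`,
written in the orthonormal coordinates given by `a, b`. -/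
def shadow (a b : E3) (K : Set E3) : Set (ℝ × ℝ) :=
  (fun x => (inner ℝ a x, inner ℝ b x)) '' K

/-- The smallest area of an orthogonal projection of `K` onto a plane. -/
noncomputable def minShadow (K : Set E3) : ℝ≥0∞ :=
  ⨅ (a : E3) (b : E3) (_ : Orthonormal ℝ ![a, b]), volume (shadow a b K)

theorem expand (a b u e : E3) (h : Orthonormal ℝ ![a, b, u]) :
    e = inner ℝ a e • a + inner ℝ b e • b + inner ℝ u e • u := by
  have hspan : ⊤ ≤ Submodule.span ℝ (Set.range ![a, b, u]) := by
    rw [h.linearIndependent.span_eq_top_of_card_eq_finrank' (by simp)]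
  have h1 := (OrthonormalBasis.mk h hspan).sum_repr' e
  rw [OrthonormalBasis.coe_mk, Fin.sum_univ_three] at h1
  exact h1.symm

theorem facts (a b u : E3) (h : Orthonormal ℝ ![a, b, u]) :
    inner ℝ a a = (1 : ℝ) ∧ inner ℝ b b = (1 : ℝ) ∧ inner ℝ a b = (0 : ℝ) ∧
      inner ℝ b a = (0 : ℝ) ∧ inner ℝ a u = (0 : ℝ) ∧ inner ℝ b u = (0 : ℝ) := by
  have n0 : ‖a‖ = 1 := h.1 0
  have n1 : ‖b‖ = 1 := h.1 1
  have h01 : inner ℝ a b = (0 : ℝ) := h.2 (show (0 : Fin 3) ≠ 1 by decide)
  have h02 : inner ℝ a u = (0 : ℝ) := h.2 (show (0 : Fin 3) ≠ 2 by decide)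
  have h12 : inner ℝ b u = (0 : ℝ) := h.2 (show (1 : Fin 3) ≠ 2 by decide)
  refine ⟨?_, ?_, h01, by rw [real_inner_comm]; exact h01, h02, h12⟩
  · rw [real_inner_self_eq_norm_sq, n0]; norm_num
  · rw [real_inner_self_eq_norm_sq, n1]; norm_num

theorem frame (a b u e : E3) (h : Orthonormal ℝ ![a, b, u]) (he : ‖e‖ = 1)
    (heu : inner ℝ e u = (0 : ℝ)) :
    ∃ p q : ℝ, p ^ 2 + q ^ 2 = 1 ∧ ∃ v : E3, ‖v‖ = 1 ∧ inner ℝ e v = (0 : ℝ) ∧
      ∀ s t r : ℝ, ((inner ℝ v (s • a + t • b + r • u) : ℝ),
        (inner ℝ e (s • a + t • b + r • u) : ℝ)) = Vale.Agent.P243.refl p q (s, t) := by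
  obtain ⟨haa, hbb, hab, hba, hau, hbu⟩ := facts a b u h
  have h1 := expand a b u e h
  rw [real_inner_comm] at heu
  rw [heu, zero_smul, add_zero] at h1
  obtain ⟨p, hp⟩ : ∃ p : ℝ, p = inner ℝ a e := ⟨_, rfl⟩
  obtain ⟨q, hq⟩ : ∃ q : ℝ, q = inner ℝ b e := ⟨_, rfl⟩
  rw [← hp, ← hq] at h1
  have hpq : p ^ 2 + q ^ 2 = 1 := by
    have h2 : inner ℝ e e = (1 : ℝ) := by rw [real_inner_self_eq_norm_sq, he]; norm_num
    rw [h1] at h2
    simp only [inner_add_left, inner_add_right, real_inner_smul_left, real_inner_smul_right, haa,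
      hbb, hab, hba] at h2
    linarith
  refine ⟨p, q, hpq, (-q) • a + p • b, ?_, ?_, ?_⟩
  · have h2 : inner ℝ ((-q) • a + p • b) ((-q) • a + p • b) = (1 : ℝ) := by
      simp only [inner_add_left, inner_add_right, real_inner_smul_left, real_inner_smul_right,
        haa, hbb, hab, hba]
      linarith
    rw [real_inner_self_eq_norm_sq] at h2
    have h3 := norm_nonneg ((-q) • a + p • b)
    nlinarith
  · rw [h1]
    simp only [inner_add_left, inner_add_right, real_inner_smul_left, real_inner_smul_right,
      haa, hbb, hab, hba]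
    ring
  · intro s t r
    have e1 : inner ℝ ((-q) • a + p • b) (s • a + t • b + r • u) = -q * s + p * t := by
      simp only [inner_add_left, inner_add_right, real_inner_smul_left, real_inner_smul_right,
        haa, hbb, hab, hba, hau, hbu]
      ring
    have e2 : inner ℝ e (s • a + t • b + r • u) = p * s + q * t := by
      rw [h1]
      simp only [inner_add_left, inner_add_right, real_inner_smul_left, real_inner_smul_right,
        haa, hbb, hab, hba, hau, hbu]
      ring
    rw [e1, e2]
    rfl

/-- Every finite covering of a convex body in three-space by cylinders whose axes are parallel to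
a common plane has total base area at least half of the smallest projection area of the body. -/
theorem result (K : Set E3) (hK : Convex ℝ K) (hKc : IsCompact K)
    (hKi : (interior K).Nonempty) (m : ℕ) (C : Fin m → Cylinder)
    (e : E3) (he : e ≠ 0) (hplane : ∀ i, inner ℝ e (C i).u = (0 : ℝ))
    (hcov : K ⊆ ⋃ i, (C i).toSet) :
    minShadow K / 2 ≤ ∑ i, (C i).area := by
  obtain ⟨e', he'⟩ : ∃ e' : E3, e' = (‖e‖)⁻¹ • e := ⟨_, rfl⟩
  have hn : 0 < ‖e‖ := norm_pos_iff.mpr he
  have he1 : ‖e'‖ = 1 := by
    rw [he', norm_smul, norm_inv, norm_norm, inv_mul_cancel₀ hn.ne']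
  have hpl : ∀ i, inner ℝ e' (C i).u = (0 : ℝ) := fun i => by
    rw [he', real_inner_smul_left, hplane i, mul_zero]
  have hfr := fun i => frame (C i).a (C i).b (C i).u e' (C i).orth he1 (hpl i)
  choose p q hpq v hv hve hvx using hfr
  apply ENNReal.div_le_of_le_mul'
  have h1 := Vale.Agent.P243.half_area K hK hKc hKi e' he1 m v hv hve
    (fun i => Vale.Agent.P243.refl (p i) (q i) ⁻¹' (C i).base)
    (fun i => (Vale.Agent.P243.refl (p i) (q i)).continuous_of_finiteDimensional.measurable
      (C i).meas)
    (by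
      intro x hx
      obtain ⟨i, hi⟩ := Set.mem_iUnion.mp (hcov hx)
      obtain ⟨z, hz, t, rfl⟩ := hi
      refine ⟨i, ?_⟩
      rw [hvx i z.1 z.2 t, Set.mem_preimage, Vale.Agent.P243.refl_refl _ _ (hpq i)]
      exact hz)
    (minShadow K) (by
      intro w hw hwe
      have horth : Orthonormal ℝ ![w, e'] := by
        refine ⟨fun i => ?_, fun i j hij => ?_⟩
        · fin_cases i
          · exact hw
          · exact he1
        · fin_cases i <;> fin_cases j
          · exact absurd rfl hij
          · change inner ℝ w e' = (0 : ℝ)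
            rw [real_inner_comm]
            exact hwe
          · exact hwe
          · exact absurd rfl hij
      exact iInf₂_le_of_le w e' (iInf_le _ horth))
  simp only [Vale.Agent.P243.volume_refl _ _ (hpq _)] at h1
  exact h1

end Vale.Agent.Results.P243.CoplanarAxes
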