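import Vale.Agent.P243.Cap2

/-!
# P243: relative base areas of cylinders covering a convex body
-/

namespace Vale.Agent.Results.P243.HeavyDirection

open Finset MeasureTheory
open scoped ENNReal

/-- Euclidean three-space. -/
abbrev E3 : Type := EuclideanSpace ℝ (Fin 3)

/-- A direction `u` in three-space (a unit vector), together with an orthonormal basis `a, b` of
the plane orthogonal to `u`. -/
structure Frame where
  a : E3
  b : E3
  u : E3
  orth : Orthonormal ℝ ![a, b, u]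

/-- The cylinder with axis direction `u` over the base `B`. The base is a subset of the plane
orthogonal to `u`, written in the orthonormal coordinates given by `a, b`. -/
def Frame.cyl (F : Frame) (B : Set (ℝ × ℝ)) : Set E3 :=
  {x | ∃ z ∈ B, ∃ t : ℝ, x = z.1 • F.a + z.2 • F.b + t • F.u}

/-- The orthogonal projection of `K` along the direction `u` onto the plane spanned by `a, b`,
written in the orthonormal coordinates given by `a, b`. -/
def Frame.shadow (F : Frame) (K : Set E3) : Set (ℝ × ℝ) :=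
  (fun x => (inner ℝ F.a x, inner ℝ F.b x)) '' K

/-- The relative base area: the area of the base divided by the area of the projection of `K`
along the axis of the cylinder. -/
noncomputable def Frame.rel (F : Frame) (B : Set (ℝ × ℝ)) (K : Set E3) : ℝ≥0∞ :=
  volume B / volume (F.shadow K)

theorem expand (a b u e : E3) (h : Orthonormal ℝ ![a, b, u]) :
    e = inner ℝ a e • a + inner ℝ b e • b + inner ℝ u e • u := by
  have hspan : ⊤ ≤ Submodule.span ℝ (Set.range ![a, b, u]) := by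
    rw [h.linearIndependent.span_eq_top_of_card_eq_finrank' (by simp)]
  have h1 := (OrthonormalBasis.mk h hspan).sum_repr' e
  rw [OrthonormalBasis.coe_mk, Fin.sum_univ_three] at h1
  exact h1.symm

theorem facts (a b u : E3) (h : Orthonormal ℝ ![a, b, u]) :
    inner ℝ a a = (1 : ℝ) ∧ inner ℝ b b = (1 : ℝ) ∧ inner ℝ u u = (1 : ℝ) ∧
      inner ℝ a b = (0 : ℝ) ∧ inner ℝ b a = (0 : ℝ) ∧ inner ℝ a u = (0 : ℝ) ∧
      inner ℝ b u = (0 : ℝ) ∧ inner ℝ u a = (0 : ℝ) ∧ inner ℝ u b = (0 : ℝ) := by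
  have n0 : ‖a‖ = 1 := h.1 0
  have n1 : ‖b‖ = 1 := h.1 1
  have n2 : ‖u‖ = 1 := h.1 2
  have h01 : inner ℝ a b = (0 : ℝ) := h.2 (show (0 : Fin 3) ≠ 1 by decide)
  have h02 : inner ℝ a u = (0 : ℝ) := h.2 (show (0 : Fin 3) ≠ 2 by decide)
  have h12 : inner ℝ b u = (0 : ℝ) := h.2 (show (1 : Fin 3) ≠ 2 by decide)
  refine ⟨?_, ?_, ?_, h01, by rw [real_inner_comm]; exact h01, h02, h12,
    by rw [real_inner_comm]; exact h02, by rw [real_inner_comm]; exact h12⟩
  · rw [real_inner_self_eq_norm_sq, n0]; norm_num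
  · rw [real_inner_self_eq_norm_sq, n1]; norm_num
  · rw [real_inner_self_eq_norm_sq, n2]; norm_num

theorem coords (a b u : E3) (h : Orthonormal ℝ ![a, b, u]) (s t r : ℝ) :
    (((inner ℝ a (s • a + t • b + r • u) : ℝ), (inner ℝ b (s • a + t • b + r • u) : ℝ)),
      (inner ℝ u (s • a + t • b + r • u) : ℝ)) = ((s, t), r) := by
  obtain ⟨haa, hbb, huu, hab, hba, hau, hbu, hua, hub⟩ := facts a b u h
  simp only [inner_add_right, real_inner_smul_right, haa, hbb, huu, hab, hba, hau, hbu, hua, hub,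
    mul_one, mul_zero, add_zero, zero_add]

theorem equiv_exists (a b u : E3) (h : Orthonormal ℝ ![a, b, u]) :
    ∃ L : E3 ≃L[ℝ] (ℝ × ℝ) × ℝ, ∀ x, L x = ((inner ℝ a x, inner ℝ b x), inner ℝ u x) := by
  refine ⟨ContinuousLinearEquiv.equivOfInverse
    (((innerSL ℝ a).prod (innerSL ℝ b)).prod (innerSL ℝ u))
    ((((ContinuousLinearMap.fst ℝ ℝ ℝ).comp (ContinuousLinearMap.fst ℝ (ℝ × ℝ) ℝ)).smulRight a)
      + (((ContinuousLinearMap.snd ℝ ℝ ℝ).comp (ContinuousLinearMap.fst ℝ (ℝ × ℝ) ℝ)).smulRight b)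
      + ((ContinuousLinearMap.snd ℝ (ℝ × ℝ) ℝ).smulRight u)) ?_ ?_, ?_⟩
  · intro x
    exact (expand a b u x h).symm
  · rintro ⟨⟨s, t⟩, r⟩
    exact coords a b u h s t r
  · intro x
    rfl

theorem equiv_measure (L : E3 ≃L[ℝ] (ℝ × ℝ) × ℝ) :
    ∃ c : ℝ≥0∞, ∀ A : Set ((ℝ × ℝ) × ℝ), MeasurableSet A → volume (L ⁻¹' A) = c * volume A := by
  have : Measure.IsAddHaarMeasure (Measure.map L (volume : Measure E3)) :=
    L.isAddHaarMeasure_map volume
  have : Measure.IsAddHaarMeasure (volume : Measure ((ℝ × ℝ) × ℝ)) :=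
    inferInstanceAs (Measure.IsAddHaarMeasure
      ((volume : Measure (ℝ × ℝ)).prod (volume : Measure ℝ)))
  have h1 := Measure.isAddLeftInvariant_eq_smul (Measure.map L (volume : Measure E3))
    (volume : Measure ((ℝ × ℝ) × ℝ))
  refine ⟨(Measure.addHaarScalarFactor (Measure.map L (volume : Measure E3))
    (volume : Measure ((ℝ × ℝ) × ℝ)) : NNReal), fun A hA => ?_⟩
  rw [← Measure.map_apply L.continuous.measurable hA]
  nth_rewrite 1 [h1]
  rfl

theorem cyl_part (K : Set E3) (hK : Convex ℝ K) (hKc : IsCompact K)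
    (hKi : (interior K).Nonempty) (C : Frame) (B : Set (ℝ × ℝ)) (mB : MeasurableSet B) (c : ℝ)
    (hc0 : 0 < c) (hc1 : c < 1) :
    volume (K ∩ C.cyl B)
      ≤ (ENNReal.ofReal (3 * (1 - c)) * C.rel B K + ENNReal.ofReal (c ^ 3)) * volume K := by
  obtain ⟨L, hL⟩ := equiv_exists C.a C.b C.u C.orth
  obtain ⟨k, hk⟩ := equiv_measure L
  have hK0 : volume K ≠ 0 :=
    ((isOpen_interior.measure_pos volume hKi).trans_le (measure_mono interior_subset)).ne'
  have hK'c : IsCompact (L '' K) := hKc.image L.continuous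
  have hK'v : Convex ℝ (L '' K) := hK.linear_image (L : E3 →ₗ[ℝ] (ℝ × ℝ) × ℝ)
  have hpre : L ⁻¹' (L '' K) = K := Set.preimage_image_eq _ L.injective
  have hv : volume K = k * volume (L '' K) := by
    rw [← hk _ hK'c.measurableSet, hpre]
  have hsh : Prod.fst '' (L '' K) = C.shadow K := by
    rw [Set.image_image, Frame.shadow]
    refine Set.image_congr fun x _ => ?_
    rw [hL]
  have hV' : volume (L '' K) ≠ 0 := by
    intro h0
    rw [hv, h0, mul_zero] at hK0
    exact hK0 rfl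
  have hO : volume (Prod.fst '' (L '' K)) ≠ 0 := by
    intro h0
    apply hV'
    have hsub : L '' K ⊆ (Prod.fst '' (L '' K)) ×ˢ (Set.univ : Set ℝ) :=
      fun x hx => ⟨⟨x, hx, rfl⟩, Set.mem_univ _⟩
    refine measure_mono_null hsub ?_
    rw [Measure.volume_eq_prod, Measure.prod_prod, h0, zero_mul]
  have hset : K ∩ C.cyl B = L ⁻¹' (L '' K ∩ Prod.fst ⁻¹' B) := by
    rw [Set.preimage_inter, hpre]
    congr 1
    ext x
    constructor
    · rintro ⟨z, hz, t, rfl⟩
      change (L (z.1 • C.a + z.2 • C.b + t • C.u)).1 ∈ B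
      rw [hL, coords C.a C.b C.u C.orth]
      exact hz
    · intro hx
      have hx' : (L x).1 ∈ B := hx
      rw [hL] at hx'
      exact ⟨_, hx', inner ℝ C.u x, expand C.a C.b C.u x C.orth⟩
  rw [hset, hk _ (hK'c.measurableSet.inter (measurable_fst mB))]
  have h1 := Vale.Agent.P243.cyl_bound (L '' K) hK'v hK'c hO hV' B mB c hc0 hc1
  calc k * volume (L '' K ∩ Prod.fst ⁻¹' B)
      ≤ k * ((ENNReal.ofReal (3 * (1 - c)) * (volume B / volume (Prod.fst '' (L '' K)))
        + ENNReal.ofReal (c ^ 3)) * volume (L '' K)) := by gcongr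
    _ = (ENNReal.ofReal (3 * (1 - c)) * C.rel B K + ENNReal.ofReal (c ^ 3)) * volume K := by
        rw [hsh, hv, Frame.rel]
        ring

theorem main_bound (K : Set E3) (hK : Convex ℝ K) (hKc : IsCompact K)
    (hKi : (interior K).Nonempty) (m : ℕ) (F : Fin m → Frame) (n : Fin m → ℕ)
    (B : ∀ j, Fin (n j) → Set (ℝ × ℝ)) (hB : ∀ j l, MeasurableSet (B j l))
    (hcov : K ⊆ ⋃ j, ⋃ l, (F j).cyl (B j l)) (c : Fin m → ℝ) (hc : ∀ j, 0 < c j ∧ c j < 1) :
    1 ≤ ∑ j, (ENNReal.ofReal (3 * (1 - c j)) * ∑ l, (F j).rel (B j l) K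
      + ENNReal.ofReal (c j ^ 3)) := by
  have hK0 : volume K ≠ 0 :=
    ((isOpen_interior.measure_pos volume hKi).trans_le (measure_mono interior_subset)).ne'
  have hKt : volume K ≠ ∞ := hKc.measure_ne_top
  have h1 : volume K ≤ ∑ j, volume (K ∩ (F j).cyl (⋃ l, B j l)) := by
    calc volume K ≤ volume (⋃ j, K ∩ (F j).cyl (⋃ l, B j l)) := by
          apply measure_mono
          intro x hx
          obtain ⟨j, hj⟩ := Set.mem_iUnion.mp (hcov hx)
          obtain ⟨l, z, hz, t, ht⟩ := Set.mem_iUnion.mp hj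
          exact Set.mem_iUnion.mpr ⟨j, hx, z, Set.mem_iUnion.mpr ⟨l, hz⟩, t, ht⟩
      _ ≤ ∑ j, volume (K ∩ (F j).cyl (⋃ l, B j l)) := measure_iUnion_fintype_le _ _
  have hrel : ∀ j, (F j).rel (⋃ l, B j l) K ≤ ∑ l, (F j).rel (B j l) K := by
    intro j
    simp only [Frame.rel, div_eq_mul_inv]
    rw [← Finset.sum_mul]
    gcongr
    exact measure_iUnion_fintype_le _ _
  have h2 : volume K ≤ (∑ j, (ENNReal.ofReal (3 * (1 - c j)) * ∑ l, (F j).rel (B j l) K
      + ENNReal.ofReal (c j ^ 3))) * volume K := by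
    rw [Finset.sum_mul]
    refine h1.trans (Finset.sum_le_sum fun j _ => ?_)
    refine (cyl_part K hK hKc hKi (F j) (⋃ l, B j l) (MeasurableSet.iUnion fun l => hB j l)
      (c j) (hc j).1 (hc j).2).trans ?_
    gcongr
    exact hrel j
  have h3 := ENNReal.div_le_of_le_mul h2
  rwa [ENNReal.div_self hK0 hKt] at h3

theorem one_bound (K : Set E3) (hK : Convex ℝ K) (hKc : IsCompact K)
    (hKi : (interior K).Nonempty) (m : ℕ) (F : Fin m → Frame) (n : Fin m → ℕ)
    (B : ∀ j, Fin (n j) → Set (ℝ × ℝ)) (hB : ∀ j l, MeasurableSet (B j l))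
    (hcov : K ⊆ ⋃ j, ⋃ l, (F j).cyl (B j l)) (c : ℝ) (hc0 : 0 < c) (hc1 : c < 1)
    (hR : ∑ j, ∑ l, (F j).rel (B j l) K ≠ ∞) :
    1 ≤ 3 * (1 - c) * (∑ j, ∑ l, (F j).rel (B j l) K).toReal + m * c ^ 3 := by
  have h1 := main_bound K hK hKc hKi m F n B hB hcov (fun _ => c) (fun _ => ⟨hc0, hc1⟩)
  rw [Finset.sum_add_distrib, ← Finset.mul_sum, Finset.sum_const, Finset.card_univ,
    Fintype.card_fin, nsmul_eq_mul] at h1
  have h2 : ENNReal.ofReal (3 * (1 - c)) * ∑ j, ∑ l, (F j).rel (B j l) K ≠ ∞ :=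
    ENNReal.mul_ne_top ENNReal.ofReal_ne_top hR
  have h3 : (m : ℝ≥0∞) * ENNReal.ofReal (c ^ 3) ≠ ∞ :=
    ENNReal.mul_ne_top (ENNReal.natCast_ne_top m) ENNReal.ofReal_ne_top
  have h4 := ENNReal.toReal_mono (ENNReal.add_ne_top.mpr ⟨h2, h3⟩) h1
  rw [ENNReal.toReal_add h2 h3, ENNReal.toReal_mul, ENNReal.toReal_mul, ENNReal.toReal_ofReal
    (by linarith), ENNReal.toReal_ofReal (by positivity), ENNReal.toReal_natCast,
    ENNReal.toReal_one] at h4
  exact h4

theorem grouped (K : Set E3) (hK : Convex ℝ K) (hKc : IsCompact K)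
    (hKi : (interior K).Nonempty) (m : ℕ) (F : Fin m → Frame) (n : Fin m → ℕ)
    (B : ∀ j, Fin (n j) → Set (ℝ × ℝ)) (hB : ∀ j l, MeasurableSet (B j l))
    (hcov : K ⊆ ⋃ j, ⋃ l, (F j).cyl (B j l)) :
    (∀ c : Fin m → ℝ, (∀ j, 0 < c j ∧ c j < 1) →
      1 ≤ ∑ j, (ENNReal.ofReal (3 * (1 - c j)) * ∑ l, (F j).rel (B j l) K
        + ENNReal.ofReal (c j ^ 3))) ∧
    (m ≤ 2 → 1 / 2 ≤ ∑ j, ∑ l, (F j).rel (B j l) K) ∧
    ENNReal.ofReal (1 / 3 + 1 / (8 * Real.sqrt m)) ≤ ∑ j, ∑ l, (F j).rel (B j l) K := by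
  refine ⟨fun c hc => main_bound K hK hKc hKi m F n B hB hcov c hc, ?_, ?_⟩
  · intro hm
    by_cases hR : ∑ j, ∑ l, (F j).rel (B j l) K = ∞
    · rw [hR]; exact le_top
    have h1 := one_bound K hK hKc hKi m F n B hB hcov (1 / 2) (by norm_num) (by norm_num) hR
    have hm' : (m : ℝ) ≤ 2 := by exact_mod_cast hm
    have h2 : (1 : ℝ) / 2 ≤ (∑ j, ∑ l, (F j).rel (B j l) K).toReal := by
      norm_num at h1
      linarith
    have h3 := ENNReal.ofReal_le_of_le_toReal h2
    rw [ENNReal.ofReal_div_of_pos (by norm_num), ENNReal.ofReal_one, ENNReal.ofReal_ofNat] at h3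
    exact h3
  · by_cases hR : ∑ j, ∑ l, (F j).rel (B j l) K = ∞
    · rw [hR]; exact le_top
    apply ENNReal.ofReal_le_of_le_toReal
    have hm1 : 1 ≤ m := by
      by_contra hcon
      have hm0 : m = 0 := by omega
      subst hm0
      obtain ⟨x, hx⟩ := hKi
      obtain ⟨j, _⟩ := Set.mem_iUnion.mp (hcov (interior_subset hx))
      exact j.elim0
    have hm1' : (1 : ℝ) ≤ m := by exact_mod_cast hm1
    obtain ⟨s, hs⟩ : ∃ s, s = Real.sqrt m := ⟨_, rfl⟩
    have hs1 : 1 ≤ s := by rw [hs]; exact Real.one_le_sqrt.mpr hm1'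
    have hs2 : (m : ℝ) = s ^ 2 := by rw [hs, Real.sq_sqrt (by linarith)]
    have hs0 : 0 < s := by linarith
    have h1 := one_bound K hK hKc hKi m F n B hB hcov (1 / (2 * s)) (by positivity)
      (by rw [div_lt_one (by positivity)]; linarith) hR
    obtain ⟨r, hr⟩ : ∃ r, r = (∑ j, ∑ l, (F j).rel (B j l) K).toReal := ⟨_, rfl⟩
    rw [← hr, hs2] at h1
    rw [← hr, ← hs]
    obtain ⟨q, hq⟩ : ∃ q, q = 1 / s := ⟨_, rfl⟩
    have hq0 : 0 < q := by rw [hq]; positivity
    have hq1 : q ≤ 1 := by rw [hq, div_le_one hs0]; exact hs1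
    have e1 : 1 / (2 * s) = q / 2 := by rw [hq]; field_simp
    have e2 : s ^ 2 * (1 / (2 * s)) ^ 3 = q / 8 := by rw [hq]; field_simp; norm_num
    have e3 : 1 / (8 * s) = q / 8 := by rw [hq]; field_simp
    rw [e2, e1] at h1
    rw [e3]
    by_contra hcon
    push Not at hcon
    have h2 : 3 * (1 - q / 2) * r < 3 * (1 - q / 2) * (1 / 3 + q / 8) :=
      mul_lt_mul_of_pos_left hcon (by linarith)
    nlinarith

/-- A linear map of the plane given by its matrix. -/
def lin (p q r s : ℝ) : (ℝ × ℝ) →ₗ[ℝ] (ℝ × ℝ) where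
  toFun z := (p * z.1 + q * z.2, r * z.1 + s * z.2)
  map_add' x y := by ext <;> simp <;> ring
  map_smul' c x := by ext <;> simp <;> ring

theorem det_lin (p q r s : ℝ) : LinearMap.det (lin p q r s) = p * s - q * r := by
  rw [← LinearMap.det_toMatrix (Module.Basis.finTwoProd ℝ), Matrix.det_fin_two]
  simp [LinearMap.toMatrix_apply, lin]

theorem mem_cyl (F : Frame) (B : Set (ℝ × ℝ)) (x : E3) :
    x ∈ F.cyl B ↔ ((inner ℝ F.a x, inner ℝ F.b x) : ℝ × ℝ) ∈ B := by
  constructor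
  · rintro ⟨z, hz, t, rfl⟩
    have h := coords F.a F.b F.u F.orth z.1 z.2 t
    have h' : (((inner ℝ F.a (z.1 • F.a + z.2 • F.b + t • F.u) : ℝ),
        (inner ℝ F.b (z.1 • F.a + z.2 • F.b + t • F.u) : ℝ)) : ℝ × ℝ) = (z.1, z.2) :=
      congrArg Prod.fst h
    rw [h']
    exact hz
  · intro h
    exact ⟨_, h, inner ℝ F.u x, expand F.a F.b F.u x F.orth⟩

theorem rotate (F G : Frame) (h : G.u = F.u ∨ G.u = -F.u) (B : Set (ℝ × ℝ))
    (hB : MeasurableSet B) (K : Set E3) :
    ∃ B' : Set (ℝ × ℝ), MeasurableSet B' ∧ F.cyl B' = G.cyl B ∧ F.rel B' K = G.rel B K := by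
  obtain ⟨gaa, gbb, guu, gab, gba, gau, gbu, gua, gub⟩ := facts G.a G.b G.u G.orth
  obtain ⟨faa, fbb, fuu, fab, fba, fau, fbu, fua, fub⟩ := facts F.a F.b F.u F.orth
  have hua : inner ℝ F.u G.a = (0 : ℝ) := by
    rcases h with h | h
    · rw [← h]; exact gua
    · have e : F.u = -G.u := by rw [h, neg_neg]
      rw [e, inner_neg_left, gua, neg_zero]
  have hub : inner ℝ F.u G.b = (0 : ℝ) := by
    rcases h with h | h
    · rw [← h]; exact gub
    · have e : F.u = -G.u := by rw [h, neg_neg]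
      rw [e, inner_neg_left, gub, neg_zero]
  have ea := expand F.a F.b F.u G.a F.orth
  have eb := expand F.a F.b F.u G.b F.orth
  rw [hua, zero_smul, add_zero] at ea
  rw [hub, zero_smul, add_zero] at eb
  obtain ⟨p, hp⟩ : ∃ p : ℝ, p = inner ℝ F.a G.a := ⟨_, rfl⟩
  obtain ⟨q, hq⟩ : ∃ q : ℝ, q = inner ℝ F.b G.a := ⟨_, rfl⟩
  obtain ⟨r, hr⟩ : ∃ r : ℝ, r = inner ℝ F.a G.b := ⟨_, rfl⟩
  obtain ⟨s, hs⟩ : ∃ s : ℝ, s = inner ℝ F.b G.b := ⟨_, rfl⟩
  rw [← hp, ← hq] at ea
  rw [← hr, ← hs] at eb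
  have h1 : p ^ 2 + q ^ 2 = 1 := by
    have h2 := gaa
    rw [ea] at h2
    simp only [inner_add_left, inner_add_right, real_inner_smul_left, real_inner_smul_right, faa,
      fbb, fab, fba] at h2
    linarith
  have h2 : r ^ 2 + s ^ 2 = 1 := by
    have h2 := gbb
    rw [eb] at h2
    simp only [inner_add_left, inner_add_right, real_inner_smul_left, real_inner_smul_right, faa,
      fbb, fab, fba] at h2
    linarith
  have h3 : p * r + q * s = 0 := by
    have h2 := gab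
    rw [ea, eb] at h2
    simp only [inner_add_left, inner_add_right, real_inner_smul_left, real_inner_smul_right, faa,
      fbb, fab, fba] at h2
    linarith
  have hdet2 : (p * s - q * r) ^ 2 = 1 := by
    have e : (p * s - q * r) ^ 2
        = (p ^ 2 + q ^ 2) * (r ^ 2 + s ^ 2) - (p * r + q * s) ^ 2 := by ring
    rw [e, h1, h2, h3]; norm_num
  have hdet : |LinearMap.det (lin p q r s)| = 1 := by
    rw [det_lin]
    have h4 : |p * s - q * r| ^ 2 = 1 := by rw [sq_abs]; exact hdet2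
    nlinarith [abs_nonneg (p * s - q * r)]
  have hdet0 : LinearMap.det (lin p q r s) ≠ 0 := by
    intro h0
    rw [h0, abs_zero] at hdet
    exact zero_ne_one hdet
  have hT : ∀ x : E3, lin p q r s (inner ℝ F.a x, inner ℝ F.b x)
      = (inner ℝ G.a x, inner ℝ G.b x) := by
    intro x
    change (p * inner ℝ F.a x + q * inner ℝ F.b x, r * inner ℝ F.a x + s * inner ℝ F.b x) = _
    rw [ea, eb]
    simp only [inner_add_left, real_inner_smul_left]
  refine ⟨lin p q r s ⁻¹' B, ?_, ?_, ?_⟩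
  · exact (lin p q r s).continuous_of_finiteDimensional.measurable hB
  · ext x
    rw [mem_cyl, mem_cyl, Set.mem_preimage, hT]
  · have v1 : volume (lin p q r s ⁻¹' B) = volume B := by
      rw [Measure.addHaar_preimage_linearMap volume hdet0, abs_inv, hdet, inv_one,
        ENNReal.ofReal_one, one_mul]
    have v2 : volume (G.shadow K) = volume (F.shadow K) := by
      have e : G.shadow K = lin p q r s '' (F.shadow K) := by
        rw [Frame.shadow, Frame.shadow, Set.image_image]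
        refine Set.image_congr fun x _ => ?_
        rw [hT]
      rw [e, Measure.addHaar_image_linearMap, hdet, ENNReal.ofReal_one, one_mul]
    rw [Frame.rel, Frame.rel, v1, v2]

theorem directional (K : Set E3) (hK : Convex ℝ K) (hKc : IsCompact K)
    (hKi : (interior K).Nonempty) (m n : ℕ) (F : Fin n → Frame) (B : Fin n → Set (ℝ × ℝ))
    (hB : ∀ i, MeasurableSet (B i)) (v : Fin m → E3) (d : Fin n → Fin m)
    (hd : ∀ i, (F i).u = v (d i) ∨ (F i).u = -v (d i))
    (hcov : K ⊆ ⋃ i, (F i).cyl (B i)) :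
    (∀ c : Fin m → ℝ, (∀ j, 0 < c j ∧ c j < 1) →
      1 ≤ ∑ j, (ENNReal.ofReal (3 * (1 - c j)) * (∑ i, if d i = j then (F i).rel (B i) K else 0)
        + ENNReal.ofReal (c j ^ 3))) ∧
    (m ≤ 2 → 1 / 2 ≤ ∑ i, (F i).rel (B i) K) ∧
    ENNReal.ofReal (1 / 3 + 1 / (8 * Real.sqrt m)) ≤ ∑ i, (F i).rel (B i) K := by
  classical
  obtain ⟨x0, hx0⟩ := hKi
  obtain ⟨i0, _⟩ := Set.mem_iUnion.mp (hcov (interior_subset hx0))
  have hKi : (interior K).Nonempty := ⟨x0, hx0⟩
  have hG : ∀ j : Fin m, ∃ G : Frame, ∀ i, d i = j → ((F i).u = G.u ∨ (F i).u = -G.u) := by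
    intro j
    by_cases hj : ∃ i, d i = j
    · obtain ⟨k, hk⟩ := hj
      refine ⟨F k, fun i hi => ?_⟩
      have e1 := hd i
      have e2 := hd k
      rw [hi] at e1
      rw [hk] at e2
      rcases e1 with e1 | e1 <;> rcases e2 with e2 | e2
      · left; rw [e1, e2]
      · right; rw [e1, e2, neg_neg]
      · right; rw [e1, e2]
      · left; rw [e1, e2]
    · exact ⟨F i0, fun i hi => absurd ⟨i, hi⟩ hj⟩
  choose G hGi using hG
  have hB' : ∀ (j : Fin m) (i : Fin n), ∃ B' : Set (ℝ × ℝ), MeasurableSet B' ∧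
      (d i = j → (G j).cyl B' = (F i).cyl (B i)) ∧
      (G j).rel B' K = if d i = j then (F i).rel (B i) K else 0 := by
    intro j i
    by_cases hij : d i = j
    · obtain ⟨B', h1, h2, h3⟩ := rotate (G j) (F i) (hGi j i hij) (B i) (hB i) K
      exact ⟨B', h1, fun _ => h2, by rw [if_pos hij]; exact h3⟩
    · refine ⟨∅, MeasurableSet.empty, fun h => absurd h hij, ?_⟩
      rw [if_neg hij, Frame.rel, measure_empty, ENNReal.zero_div]
  choose B' hm hc hr using hB'
  have hcov' : K ⊆ ⋃ j, ⋃ i, (G j).cyl (B' j i) := by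
    intro x hx
    obtain ⟨i, hi⟩ := Set.mem_iUnion.mp (hcov hx)
    refine Set.mem_iUnion.mpr ⟨d i, Set.mem_iUnion.mpr ⟨i, ?_⟩⟩
    rw [hc (d i) i rfl]
    exact hi
  have key := grouped K hK hKc hKi m G (fun _ => n) B' hm hcov'
  simp only [hr] at key
  have hsum : ∑ j : Fin m, ∑ i : Fin n, (if d i = j then (F i).rel (B i) K else 0)
      = ∑ i, (F i).rel (B i) K := by
    rw [Finset.sum_comm]
    refine Finset.sum_congr rfl fun i _ => ?_
    rw [Finset.sum_ite_eq]
    simp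
  rw [hsum] at key
  exact key

/-- Let a convex body `K` in three-space be covered by finitely many cylinders whose axes have at
most `m` different directions, and let `R` be the sum of the relative base areas. Then
`1 ≤ ∑ (3 (1 - c j) R j + (c j) ^ 3)` for all `c j` in `(0, 1)`, where `R j` is the part of the sum
coming from the direction `j`. Moreover `R` is at least `1 / 2` if `m ≤ 2`, at least
`1 / 3 + 1 / (8 √m)` in general, and at least `1 / 2` if some `R j` is at least `2 / 5`. -/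
theorem result (K : Set E3) (hK : Convex ℝ K) (hKc : IsCompact K)
    (hKi : (interior K).Nonempty) (m n : ℕ) (F : Fin n → Frame) (B : Fin n → Set (ℝ × ℝ))
    (hB : ∀ i, MeasurableSet (B i)) (v : Fin m → E3) (d : Fin n → Fin m)
    (hd : ∀ i, (F i).u = v (d i) ∨ (F i).u = -v (d i))
    (hcov : K ⊆ ⋃ i, (F i).cyl (B i)) :
    (∀ c : Fin m → ℝ, (∀ j, 0 < c j ∧ c j < 1) →
      1 ≤ ∑ j, (ENNReal.ofReal (3 * (1 - c j)) * (∑ i, if d i = j then (F i).rel (B i) K else 0)
        + ENNReal.ofReal (c j ^ 3))) ∧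
    (m ≤ 2 → 1 / 2 ≤ ∑ i, (F i).rel (B i) K) ∧
    ENNReal.ofReal (1 / 3 + 1 / (8 * Real.sqrt m)) ≤ ∑ i, (F i).rel (B i) K ∧
    ∀ j : Fin m, 2 / 5 ≤ (∑ i, if d i = j then (F i).rel (B i) K else 0) →
      1 / 2 ≤ ∑ i, (F i).rel (B i) K := by
  obtain ⟨h1, h2, h3⟩ := directional K hK hKc hKi m n F B hB v d hd hcov
  refine ⟨h1, h2, h3, fun j hj => ?_⟩
  by_cases hR : ∑ i, (F i).rel (B i) K = ∞
  · rw [hR]; exact le_top
  have hsum : ∑ j : Fin m, ∑ i : Fin n, (if d i = j then (F i).rel (B i) K else 0)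
      = ∑ i, (F i).rel (B i) K := by
    rw [Finset.sum_comm]
    refine Finset.sum_congr rfl fun i _ => ?_
    rw [Finset.sum_ite_eq]
    simp
  obtain ⟨Q, hQ⟩ : ∃ Q : Fin m → ℝ≥0∞,
      Q = fun j => ∑ i, if d i = j then (F i).rel (B i) K else 0 := ⟨_, rfl⟩
  have hQj : ∀ j, (∑ i, if d i = j then (F i).rel (B i) K else 0) = Q j := fun j => by rw [hQ]
  simp only [hQj] at h1 hj hsum
  rw [← hsum] at hR ⊢
  have hfin : ∀ k, Q k ≠ ∞ := fun k =>
    ne_top_of_le_ne_top hR (Finset.single_le_sum (fun _ _ => bot_le) (Finset.mem_univ k))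
  obtain ⟨r, hr⟩ : ∃ r : Fin m → ℝ, r = fun k => (Q k).toReal := ⟨_, rfl⟩
  have hr0 : ∀ k, 0 ≤ r k := fun k => by rw [hr]; exact ENNReal.toReal_nonneg
  have hrQ : ∀ k, Q k = ENNReal.ofReal (r k) := fun k => by
    rw [hr]; exact (ENNReal.ofReal_toReal (hfin k)).symm
  obtain ⟨g, hg⟩ : ∃ g : ℝ, g = 1 / (10 * ((m : ℝ) + 1)) := ⟨_, rfl⟩
  have hm0 : (0 : ℝ) ≤ m := Nat.cast_nonneg m
  have hg0 : 0 < g := by rw [hg]; positivity
  have hg1 : g * (10 * ((m : ℝ) + 1)) = 1 := by rw [hg]; field_simp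
  have hg2 : g ≤ 1 / 10 := by nlinarith
  have hmg : (m : ℝ) * g ≤ 1 / 10 := by nlinarith
  have hmg3 : (m : ℝ) * g ^ 3 ≤ 1 / 1000 := by
    have e : (m : ℝ) * g ^ 3 = (m : ℝ) * g * (g * g) := by ring
    have e2 : g * g ≤ 1 / 100 := by nlinarith
    rw [e]
    nlinarith [mul_nonneg hm0 hg0.le, mul_nonneg hg0.le hg0.le]
  have h4 := h1 (fun k => if k = j then 63 / 100 else g) (fun k => by
    by_cases hk : k = j
    · simp only [hk, if_true]; norm_num
    · simp only [hk, if_false]; exact ⟨hg0, by linarith⟩)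
  have hc0 : ∀ k : Fin m, 0 < (if k = j then 63 / 100 else g : ℝ) := fun k => by
    by_cases hk : k = j
    · simp only [hk, if_true]; norm_num
    · simp only [hk, if_false]; exact hg0
  have hc1 : ∀ k : Fin m, (if k = j then 63 / 100 else g : ℝ) < 1 := fun k => by
    by_cases hk : k = j
    · simp only [hk, if_true]; norm_num
    · simp only [hk, if_false]; linarith
  have h5 : ∀ k : Fin m, ENNReal.ofReal (3 * (1 - (if k = j then 63 / 100 else g : ℝ))) * Q k
      + ENNReal.ofReal ((if k = j then 63 / 100 else g : ℝ) ^ 3)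
      = ENNReal.ofReal (3 * (1 - (if k = j then 63 / 100 else g : ℝ)) * r k
        + (if k = j then 63 / 100 else g : ℝ) ^ 3) := by
    intro k
    have a1 : 0 ≤ 3 * (1 - (if k = j then 63 / 100 else g : ℝ)) := by linarith [hc1 k]
    rw [ENNReal.ofReal_add (mul_nonneg a1 (hr0 k)) (pow_nonneg (hc0 k).le 3),
      ENNReal.ofReal_mul a1, hrQ k]
  simp only [h5] at h4
  rw [← ENNReal.ofReal_sum_of_nonneg (fun k _ => by
    have a1 : 0 ≤ 3 * (1 - (if k = j then 63 / 100 else g : ℝ)) := by linarith [hc1 k]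
    exact add_nonneg (mul_nonneg a1 (hr0 k)) (pow_nonneg (hc0 k).le 3)),
    ENNReal.one_le_ofReal] at h4
  have h6 : ∑ k : Fin m, (3 * (1 - (if k = j then 63 / 100 else g : ℝ)) * r k
        + (if k = j then 63 / 100 else g : ℝ) ^ 3)
      ≤ ∑ k : Fin m, (3 * r k + g ^ 3
        + if k = j then (-(189 / 100) * r j + 250047 / 1000000) else 0) := by
    refine Finset.sum_le_sum fun k _ => ?_
    have b1 : 0 ≤ g ^ 3 := by positivity
    by_cases hk : k = j
    · simp only [hk, if_true]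
      linarith
    · simp only [hk, if_false]
      have b2 := mul_nonneg hg0.le (hr0 k)
      linarith
  have h9 : ∑ k : Fin m, (3 * r k + g ^ 3
        + if k = j then (-(189 / 100) * r j + 250047 / 1000000) else 0)
      = 3 * ∑ k, r k + m * g ^ 3 + (-(189 / 100) * r j + 250047 / 1000000) := by
    rw [Finset.sum_add_distrib, Finset.sum_add_distrib, ← Finset.mul_sum,
      Finset.sum_ite_eq', Finset.sum_const, Finset.card_univ, Fintype.card_fin, nsmul_eq_mul,
      if_pos (Finset.mem_univ j)]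
  have h10 := h4.trans h6
  rw [h9] at h10
  have hrj : (2 : ℝ) / 5 ≤ r j := by
    have h7 := ENNReal.toReal_mono (hfin j) hj
    rw [ENNReal.toReal_div, ENNReal.toReal_ofNat, ENNReal.toReal_ofNat] at h7
    rw [hr]
    exact h7
  have hfinal : (1 : ℝ) / 2 ≤ ∑ k, r k := by linarith
  have hQs : ∑ k, Q k = ENNReal.ofReal (∑ k, r k) := by
    rw [ENNReal.ofReal_sum_of_nonneg fun k _ => hr0 k]
    exact Finset.sum_congr rfl fun k _ => hrQ k
  rw [hQs]
  have h8 := ENNReal.ofReal_le_ofReal hfinal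
  rw [ENNReal.ofReal_div_of_pos (by norm_num), ENNReal.ofReal_one, ENNReal.ofReal_ofNat] at h8
  exact h8

end Vale.Agent.Results.P243.HeavyDirection
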